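import Vale.Agent.P133.R2.H28.Base
import Vale.Agent.P133.H832.LInf

/-!
P133 (helper966, for helper28): weak pure infiniteness with an explicit bound of the norms, and
bounded products.
-/

open scoped ComplexOrder ENNReal

namespace Vale.Agent.P133.R2.H966

open Vale.Agent.P133.H832 Vale.Agent.P133.R2.H28
open Vale.Agent.P133F (WPI)

universe u

theorem bwpi_const {B : Type u} [NonUnitalCStarAlgebra B] [PartialOrder B] [StarOrderedRing B]
    {n : ℕ} (hB : WPI B n) (M : ℕ) {ε R : ℝ} (hε : 0 < ε) (hR : 0 ≤ R) (h : B) (h0 : 0 ≤ h)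
    (hhR : ‖h‖ ≤ R) : ∃ w : Fin n → Fin M → B,
      (∀ i j, ‖w i j‖ ≤ Real.sqrt ((R + ε / 4) / (ε / 4))) ∧
      (∀ i j, w i j ∈ closure (Set.range fun v => h * v * h)) ∧
      ∀ j j', ‖∑ i, star (w i j) * h * w i j' - (if j = j' then h else 0)‖ ≤ ε := by
  set e1 : ℝ := ε / 4 with he1
  have e1pos : 0 < e1 := by positivity
  have hs : star h = h := (IsSelfAdjoint.of_nonneg h0).star_eq
  have hm : ∀ t : ℝ, 0 < max t e1 := fun t => lt_of_lt_of_le e1pos (le_max_right _ _)
  have hf : Continuous (fun t : ℝ => max (t - e1) 0) := by fun_prop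
  have hf0 : (fun t : ℝ => max (t - e1) 0) 0 = 0 := by
    simp only [zero_sub]; exact max_eq_right (by linarith)
  set g : ℝ → ℝ := fun t => Real.sqrt (max (t - e1) 0 / max t e1) with hg
  have hgc : Continuous g :=
    Real.continuous_sqrt.comp (Continuous.div (by fun_prop) (by fun_prop) fun t => (hm t).ne')
  have hg0 : g 0 = 0 := by
    simp only [hg, zero_sub]
    rw [max_eq_right (by linarith), zero_div, Real.sqrt_zero]
  have hgg : ∀ t, g t * g t = max (t - e1) 0 / max t e1 := fun t =>
    Real.mul_self_sqrt (div_nonneg (le_max_right _ _) (hm t).le)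
  set k : ℝ → ℝ := fun t => g t / max t e1 with hk
  have hkc : Continuous k := hgc.div (by fun_prop) fun t => (hm t).ne'
  have hk0 : k 0 = 0 := by simp only [hk, hg0, zero_div]
  set G : B := cfcₙ g h with hG
  have hGs : star G = G := (cfcₙ_predicate (p := IsSelfAdjoint) g h).star_eq
  -- `G = h * k(h)`
  have hGk : G = h * cfcₙ k h := by
    have e : h * cfcₙ k h = cfcₙ (fun t => t * k t) h := by
      rw [cfcₙ_mul (fun x : ℝ => x) k h (by fun_prop) rfl hkc.continuousOn hk0, cfcₙ_id' ℝ h]
    rw [e, hG]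
    refine cfcₙ_congr fun t ht => ?_
    have ht0 : 0 ≤ t := quasispectrum_nonneg_of_nonneg h h0 t ht
    show g t = t * (g t / max t e1)
    rcases le_total t e1 with h1 | h1
    · have : g t = 0 := by
        simp only [hg]
        rw [max_eq_right (by linarith : t - e1 ≤ 0), zero_div, Real.sqrt_zero]
      rw [this]; simp
    · rw [max_eq_left h1]
      have : t ≠ 0 := (lt_of_lt_of_le e1pos h1).ne'
      field_simp
  -- `G * G ≤ (1 / e1) * H28.cut h e1`
  have hGG : G * G = cfcₙ (fun t => g t * g t) h := by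
    rw [hG, cfcₙ_mul g g h hgc.continuousOn hg0 hgc.continuousOn hg0]
  have hGGle : G * G ≤ (1 / e1) • H28.cut h e1 := by
    have e : (1 / e1) • H28.cut h e1 = cfcₙ (fun t : ℝ => (1 / e1) • max (t - e1) 0) h := by
      rw [H28.cut, cfcₙ_smul (1 / e1) (fun t : ℝ => max (t - e1) 0) h hf.continuousOn hf0]
    rw [e, hGG]
    refine cfcₙ_mono (fun t ht => ?_) (hgc.mul hgc).continuousOn
      (hf.const_smul (1 / e1)).continuousOn (by simp [hg0]) (by simp [e1pos.le])
    show g t * g t ≤ (1 / e1) * max (t - e1) 0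
    rw [hgg, div_eq_inv_mul, one_div]
    have h2 : 0 ≤ max (t - e1) 0 := le_max_right _ _
    have h3 : (max t e1)⁻¹ ≤ e1⁻¹ := inv_anti₀ e1pos (le_max_right _ _)
    exact mul_le_mul_of_nonneg_right h3 h2
  -- `G * h * G = H28.cut h e1`
  have hGhG : G * h * G = H28.cut h e1 := by
    have e : G * h = cfcₙ (fun t => g t * t) h := by
      rw [cfcₙ_mul g (fun x : ℝ => x) h hgc.continuousOn hg0 (by fun_prop) rfl, cfcₙ_id' ℝ h]
    have e2 : G * h * G = cfcₙ (fun t => g t * t * g t) h := by
      rw [e, cfcₙ_mul (fun t => g t * t) g h (hgc.mul continuous_id).continuousOn (by simp)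
        hgc.continuousOn hg0]
    rw [e2, H28.cut]
    refine cfcₙ_congr fun t ht => ?_
    have ht0 : 0 ≤ t := quasispectrum_nonneg_of_nonneg h h0 t ht
    show g t * t * g t = max (t - e1) 0
    have e3 : g t * t * g t = t * (g t * g t) := by ring
    rw [e3, hgg]
    rcases le_total t e1 with h1 | h1
    · rw [max_eq_right (by linarith : t - e1 ≤ 0)]; simp
    · rw [max_eq_left h1]
      have : t ≠ 0 := (lt_of_lt_of_le e1pos h1).ne'
      field_simp
  have hc0 : 0 ≤ H28.cut h e1 := H28.cut_nonneg h e1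
  have hcR : ‖H28.cut h e1‖ ≤ R := by
    refine norm_cfcₙ_le fun t ht => ?_
    have ht0 : 0 ≤ t := quasispectrum_nonneg_of_nonneg h h0 t ht
    have h3 : ‖t‖ ≤ ‖h‖ := by
      have := norm_apply_le_norm_cfcₙ (fun x : ℝ => x) h ht
      rwa [cfcₙ_id' ℝ h] at this
    have h4 : t ≤ R := (le_abs_self t).trans (h3.trans hhR)
    rw [Real.norm_of_nonneg (le_max_right _ _)]
    exact max_le (by linarith) hR
  obtain ⟨z, hz⟩ := hB (H28.cut h e1) hc0 M e1 e1pos
  -- the norms of `G * z i j`
  have hGz : ∀ i j, ‖G * z i j‖ ≤ Real.sqrt ((R + e1) / e1) := by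
    intro i j
    refine Real.le_sqrt_of_sq_le ?_
    have h1 : ‖G * z i j‖ ^ 2 = ‖star (z i j) * (G * G) * z i j‖ := by
      rw [pow_two, ← CStarRing.norm_star_mul_self, star_mul, hGs]
      simp only [mul_assoc]
    have h2 : 0 ≤ star (z i j) * (G * G) * z i j := by
      refine star_left_conjugate_nonneg ?_ _
      have := star_mul_self_nonneg G
      rwa [hGs] at this
    have h3 : star (z i j) * (G * G) * z i j ≤
        (1 / e1) • (star (z i j) * H28.cut h e1 * z i j) := by
      have := star_left_conjugate_le_conjugate hGGle (z i j)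
      rwa [mul_smul_comm, smul_mul_assoc] at this
    have h4 : star (z i j) * H28.cut h e1 * z i j ≤ ∑ i', star (z i' j) * H28.cut h e1 * z i' j :=
      Finset.single_le_sum (f := fun i' => star (z i' j) * H28.cut h e1 * z i' j)
        (fun i' _ => star_left_conjugate_nonneg hc0 _) (Finset.mem_univ i)
    have h5 : ‖∑ i', star (z i' j) * H28.cut h e1 * z i' j‖ ≤ R + e1 := by
      have h6 := (hz j j).le
      rw [if_pos rfl] at h6
      calc _ = ‖(∑ i', star (z i' j) * H28.cut h e1 * z i' j - H28.cut h e1) + H28.cut h e1‖ := by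
            rw [sub_add_cancel]
        _ ≤ e1 + R := (norm_add_le _ _).trans (add_le_add h6 hcR)
        _ = R + e1 := add_comm _ _
    calc _ = _ := h1
      _ ≤ ‖(1 / e1) • (star (z i j) * H28.cut h e1 * z i j)‖ :=
          CStarAlgebra.norm_le_norm_of_nonneg_of_le h2 h3
      _ = (1 / e1) * ‖star (z i j) * H28.cut h e1 * z i j‖ := by
          rw [norm_smul, Real.norm_of_nonneg (by positivity)]
      _ ≤ (1 / e1) * (R + e1) := by
          gcongr
          exact (CStarAlgebra.norm_le_norm_of_nonneg_of_le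
            (star_left_conjugate_nonneg hc0 _) h4).trans h5
      _ = (R + e1) / e1 := by ring
  obtain ⟨e, hes, hen, ⟨v, hv⟩, hye, hey⟩ := local_unit h0 (ε := e1 / 2) (by positivity)
  have hvs : star v * h = e := by
    have h1 := congrArg star hv
    rw [hes, star_mul, hs] at h1
    exact h1.symm
  refine ⟨fun i j => G * z i j * e, fun i j => ?_, fun i j => ?_, fun j j' => ?_⟩
  · calc _ ≤ ‖G * z i j‖ * ‖e‖ := norm_mul_le _ _
      _ ≤ Real.sqrt ((R + e1) / e1) * 1 := by
          gcongr
          exact hGz i j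
      _ = _ := mul_one _
  · refine subset_closure ⟨cfcₙ k h * z i j * star v, ?_⟩
    show h * (cfcₙ k h * z i j * star v) * h = G * z i j * e
    rw [hGk, ← hvs]
    simp only [mul_assoc]
  · have h1 : ∑ i, star (G * z i j * e) * h * (G * z i j' * e) =
        e * (∑ i, star (z i j) * H28.cut h e1 * z i j') * e := by
      rw [Finset.mul_sum, Finset.sum_mul]
      refine Finset.sum_congr rfl fun i _ => ?_
      rw [star_mul, star_mul, hGs, hes, ← hGhG]
      simp only [mul_assoc]
    rw [h1]
    set S : B := ∑ i, star (z i j) * H28.cut h e1 * z i j' with hS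
    have h2 := (hz j j').le
    rw [← hS] at h2
    by_cases hj : j = j'
    · rw [if_pos hj] at h2 ⊢
      have e2 : e * S * e - h =
          e * (S - H28.cut h e1) * e +
            (e * (H28.cut h e1 - h) * e + (e * (h * e - h) + (e * h - h))) := by
        simp only [mul_sub, sub_mul, mul_assoc]
        abel
      rw [e2]
      calc _ ≤ ‖e * (S - H28.cut h e1) * e‖ + (‖e * (H28.cut h e1 - h) * e‖ +
            (‖e * (h * e - h)‖ + ‖e * h - h‖)) := by
            refine (norm_add_le _ _).trans ?_
            gcongr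
            refine (norm_add_le _ _).trans ?_
            gcongr
            exact norm_add_le _ _
        _ ≤ 1 * e1 * 1 + (1 * e1 * 1 + (1 * (e1 / 2) + e1 / 2)) := by
            gcongr
            · refine (norm_mul_le _ _).trans ?_
              gcongr
              refine (norm_mul_le _ _).trans ?_
              gcongr
            · refine (norm_mul_le _ _).trans ?_
              gcongr
              refine (norm_mul_le _ _).trans ?_
              gcongr
              exact H28.norm_cut_sub_le h0 e1pos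
            · refine (norm_mul_le _ _).trans ?_
              gcongr
        _ ≤ ε := by rw [he1]; linarith
    · rw [if_neg hj, sub_zero] at h2 ⊢
      calc _ ≤ ‖e‖ * ‖S‖ * ‖e‖ := by
            refine (norm_mul_le _ _).trans ?_
            gcongr
            exact norm_mul_le _ _
        _ ≤ 1 * e1 * 1 := by gcongr
        _ ≤ ε := by rw [he1]; linarith


theorem wpi_lp {A : ℕ → Type u} [∀ k, NonUnitalCStarAlgebra (A k)] [∀ k, PartialOrder (A k)]
    [∀ k, StarOrderedRing (A k)] {n : ℕ} (h : ∀ k, WPI (A k) n) [PartialOrder (lp A ∞)]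
    [StarOrderedRing (lp A ∞)] : WPI (lp A ∞) n := by
  intro a a0 M ε hε
  have ha0 : ∀ k, 0 ≤ a k := by
    intro k
    refine AddSubmonoid.closure_induction (motive := fun (x : lp A ∞) _ => 0 ≤ x k) ?_ ?_ ?_
      (StarOrderedRing.nonneg_iff.1 a0)
    · rintro _ ⟨x, rfl⟩
      show 0 ≤ (star x * x : lp A ∞) k
      rw [lp_mul_apply, lp.star_apply]
      exact star_mul_self_nonneg _
    · exact le_rfl
    · intro x y _ _ hx hy
      show 0 ≤ (x + y : lp A ∞) k
      rw [lp.coeFn_add]
      exact add_nonneg hx hy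
  have haR : ∀ k, ‖a k‖ ≤ ‖a‖ := fun k => lp.norm_apply_le_norm (by simp) a k
  choose w h1 h2 h3 using fun k =>
    bwpi_const (h k) M (half_pos hε) (norm_nonneg a) (a k) (ha0 k) (haR k)
  have hmem : ∀ i j, Memℓp (fun k => w k i j) ∞ := by
    intro i j
    refine memℓp_infty ⟨Real.sqrt ((‖a‖ + ε / 2 / 4) / (ε / 2 / 4)), ?_⟩
    rintro _ ⟨k, rfl⟩
    exact h1 k i j
  refine ⟨fun i j => ⟨fun k => w k i j, hmem i j⟩, fun j j' => ?_⟩
  refine lt_of_le_of_lt (lp.norm_le_of_forall_le (half_pos hε).le fun k => ?_)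
    (half_lt_self hε)
  have h4 := h3 k j j'
  have h5 : ((∑ i, star (⟨fun k => w k i j, hmem i j⟩ : lp A ∞) * a *
      (⟨fun k => w k i j', hmem i j'⟩ : lp A ∞)) - (if j = j' then a else 0) : lp A ∞) k =
      ∑ i, star (w k i j) * a k * w k i j' - (if j = j' then a k else 0) := by
    rw [lp_sub_apply, lp.coeFn_sum, Finset.sum_apply]
    congr 1
    split_ifs
    · rfl
    · rfl
  rw [h5]
  exact h4

end Vale.Agent.P133.R2.H966
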