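import Vale.Agent.P133.H832.Tame2

/-!
P133 (helper966): if `c` is in the closed ideal of `x`, the cut `(c - ε)₊` generates the same
closed ideal as a positive element of the closed right ideal of `x`.
-/

open scoped ComplexOrder

namespace Vale.Agent.P133.R2.H966

open Vale.Agent.P133 Vale.Agent.P133.H832

universe u

variable {A : Type u} [NonUnitalCStarAlgebra A] [PartialOrder A] [StarOrderedRing A]

theorem same_ideal {x c : A} (hx : 0 ≤ x) (hc : 0 ≤ c) (h : InId x c) {ε : ℝ} (hε : 0 < ε) :
    ∃ X : A, 0 ≤ X ∧ X ∈ closure (Set.range fun w => x * w) ∧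
      InId (cfcₙ (fun t : ℝ => max (t - ε) 0) c) X ∧
      InId X (cfcₙ (fun t : ℝ => max (t - ε) 0) c) := by
  obtain ⟨-, hs⟩ := subId_of_inId' hx hc h
  obtain ⟨m, t, ht⟩ := hs (ε / 2) (half_pos hε)
  set q : A := CFC.sqrt x with hq
  have hqs : star q = q := (IsSelfAdjoint.of_nonneg (CFC.sqrt_nonneg x)).star_eq
  have hqq : q * q = x := CFC.sqrt_mul_sqrt_self x hx
  set M : ℝ → ℝ := fun t : ℝ => max (t - ε) 0 with hM
  have hMc : Continuous M := by fun_prop
  have hM0 : M 0 = 0 := by
    simp only [hM, zero_sub]; exact max_eq_right (by linarith)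
  set c' : A := cfcₙ M c with hc'
  have hc'0 : 0 ≤ c' := cfcₙ_nonneg fun s _ => le_max_right _ _
  set φ : ℝ → ℝ := fun s => √(M s) with hφ
  have hφc : Continuous φ := hMc.sqrt
  have hφ0 : φ 0 = 0 := by simp only [hφ, hM0, Real.sqrt_zero]
  set d : A := cfcₙ φ c with hd
  have hds : star d = d := (cfcₙ_predicate (p := IsSelfAdjoint) φ c).star_eq
  have hφφ : ∀ s, φ s * φ s = M s := fun s => Real.mul_self_sqrt (le_max_right _ _)
  have hdd : d * d = c' := by
    rw [hd, ← cfcₙ_mul φ φ c hφc.continuousOn hφ0 hφc.continuousOn hφ0, hc']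
    congr 1
    funext s
    exact hφφ s
  have hdcd : ε • c' ≤ d * c * d := by
    have hc1 : Continuous (fun s => φ s * s) := hφc.mul continuous_id
    have hc2 : Continuous (fun s => φ s * s * φ s) := hc1.mul hφc
    have e1 : d * c * d = cfcₙ (fun s => φ s * s * φ s) c := by
      rw [cfcₙ_mul (fun s => φ s * s) φ c hc1.continuousOn (by simp [hφ0]) hφc.continuousOn hφ0,
        cfcₙ_mul φ (fun s => s) c hφc.continuousOn hφ0 (by fun_prop) rfl, cfcₙ_id' ℝ c]
    have e2 : ε • c' = cfcₙ (fun s => ε * M s) c := by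
      rw [hc', cfcₙ_const_mul ε M c hMc.continuousOn hM0]
    rw [e1, e2]
    refine cfcₙ_mono (fun s _ => ?_) (hf := (continuous_const.mul hMc).continuousOn)
      (hg := hc2.continuousOn) (hf0 := by simp [hM0]) (hg0 := by simp [hφ0])
    have e3 : φ s * s * φ s = s * M s := by rw [← hφφ s]; ring
    rw [e3]
    rcases le_total s ε with hsε | hsε
    · have : M s = 0 := max_eq_right (by linarith)
      rw [this, mul_zero, mul_zero]
    · exact mul_le_mul_of_nonneg_right hsε (le_max_right _ _)
  set b : Fin m → A := fun k => q * t k with hb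
  have hbb : ∀ k, star (b k) * b k = star (t k) * x * t k := fun k => by
    simp only [hb, star_mul, hqs, ← hqq, mul_assoc]
  set g : A := ∑ k, star (b k) * b k with hg
  have hgc : ‖c - g‖ < ε / 2 := by
    rw [← norm_neg, neg_sub, hg]
    simp only [hbb]
    exact ht
  have hcgs : IsSelfAdjoint (c - g) :=
    (IsSelfAdjoint.of_nonneg hc).sub (IsSelfAdjoint.of_nonneg
      (Finset.sum_nonneg fun k _ => star_mul_self_nonneg (b k)))
  have hdgd : (ε / 2) • c' ≤ d * g * d := by
    have h1 : d * (c - g) * d ≤ ‖c - g‖ • c' := by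
      have := CStarAlgebra.star_left_conjugate_le_norm_smul (a := d) (b := c - g) hcgs
      rwa [hds, hdd] at this
    have h2 : ‖c - g‖ • c' ≤ (ε / 2) • c' := smul_le_smul_of_nonneg_right hgc.le hc'0
    have h3 : d * g * d = d * c * d - d * (c - g) * d := by
      rw [mul_sub, sub_mul]; abel
    have h4 : (ε / 2) • c' = ε • c' - (ε / 2) • c' := by
      rw [← sub_smul]; congr 1; ring
    rw [h3, h4]
    exact sub_le_sub hdcd (h1.trans h2)
  set X : A := ∑ k, (b k * d) * star (b k * d) with hX
  have hXk : ∀ k, 0 ≤ (b k * d) * star (b k * d) := fun k => mul_star_self_nonneg _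
  refine ⟨X, Finset.sum_nonneg fun k _ => hXk k, ?_, ?_, ?_⟩
  · -- the closed right ideal of `x`
    set W : A := ∑ k, t k * d * star (b k * d) with hW
    have hXW : X = q * W := by
      rw [hX, hW, Finset.mul_sum]
      refine Finset.sum_congr rfl fun k _ => ?_
      simp only [hb, mul_assoc]
    rw [Metric.mem_closure_iff]
    intro δ hδ
    obtain ⟨G, hG⟩ := approx_unit q (ε := δ / (‖W‖ + 1)) (by positivity)
    refine ⟨x * (q * G * W), ⟨_, rfl⟩, ?_⟩
    have e1 : x * (q * G * W) - X = (q * (star q * q * G) - q) * W := by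
      rw [hXW, sub_mul, hqs, ← hqq]
      simp only [mul_assoc]
    rw [dist_comm, dist_eq_norm, e1]
    calc _ ≤ ‖q * (star q * q * G) - q‖ * ‖W‖ := norm_mul_le _ _
      _ ≤ δ / (‖W‖ + 1) * ‖W‖ := by gcongr
      _ = ‖W‖ / (‖W‖ + 1) * δ := by ring
      _ < δ := by
          have h3 : ‖W‖ / (‖W‖ + 1) < 1 := by
            rw [div_lt_one (by positivity)]; linarith
          nlinarith
  · -- `X` is in the ideal of the cut
    refine InId.sum _ _ fun k _ => ?_
    have e1 : (b k * d) * star (b k * d) = b k * c' * star (b k) := by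
      rw [star_mul, hds, ← hdd]
      simp only [mul_assoc]
    rw [e1]
    exact InId.term _ _ _
  · -- the cut is in the ideal of `X`
    obtain ⟨J, hJ, hJ'⟩ := isClosedIdeal_inId X
    rw [← hJ']
    have hXJ : X ∈ J := (hJ' X).2 (InId.refl X)
    have h1 : ∀ k, star (b k * d) * (b k * d) ∈ J := by
      intro k
      have h2 : (b k * d) * star (b k * d) ∈ J := by
        refine hJ.of_le (hXk k) ?_ hXJ
        rw [hX]
        exact Finset.single_le_sum (f := fun k => (b k * d) * star (b k * d))
          (fun i _ => hXk i) (Finset.mem_univ k)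
      have h3 : star (b k * d) ∈ J := hJ.of_star_mul_self (by rw [star_star]; exact h2)
      exact (hJ.2 _ _ h3).2
    have h2 : d * g * d ∈ J := by
      have e1 : d * g * d = ∑ k, star (b k * d) * (b k * d) := by
        rw [hg, Finset.mul_sum, Finset.sum_mul]
        refine Finset.sum_congr rfl fun k _ => ?_
        rw [star_mul (b k) d, hds]
        simp only [mul_assoc]
      rw [e1]
      exact J.sum_mem fun k _ => h1 k
    have h3 : (ε / 2) • c' ∈ J := hJ.of_le (smul_nonneg (by positivity) hc'0) hdgd h2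
    have h4 : c' = ((2 / ε : ℝ) : ℂ) • ((ε / 2) • c') := by
      rw [Complex.coe_smul, smul_smul]
      have : 2 / ε * (ε / 2) = 1 := by field_simp
      rw [this, one_smul]
    rw [h4]
    exact J.smul_mem _ h3

end Vale.Agent.P133.R2.H966
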